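import Mathlib

/-!
# The scalar inequality of the quenched JRL with exponents (16, 7)
-/

set_option autoImplicit false

namespace Vale.Agent.P331.H311

/-- tangent estimate for the perspective of the eighth power -/
theorem persp {x y t : ℝ} (hx : 0 ≤ x) (hy : 0 < y) (ht : 0 ≤ t) :
    8 * t ^ 7 * x - 7 * t ^ 8 * y + 7 * t ^ 6 * (x - t * y) ^ 2 / y ≤ x ^ 8 / y ^ 7 := by
  obtain ⟨r, hr, rfl⟩ : ∃ r : ℝ, 0 ≤ r ∧ x = r * y := ⟨x / y, by positivity, by field_simp⟩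
  have h1 : (r * y) ^ 8 / y ^ 7 = r ^ 8 * y := by field_simp
  have h2 : 7 * t ^ 6 * (r * y - t * y) ^ 2 / y = 7 * t ^ 6 * (r - t) ^ 2 * y := by
    field_simp
  rw [h1, h2]
  have h3 : r ^ 8 * y - (8 * t ^ 7 * (r * y) - 7 * t ^ 8 * y + 7 * t ^ 6 * (r - t) ^ 2 * y) =
      y * ((r - t) ^ 2 * (r ^ 6 + 2 * r ^ 5 * t + 3 * r ^ 4 * t ^ 2 + 4 * r ^ 3 * t ^ 3 +
        5 * r ^ 2 * t ^ 4 + 6 * r * t ^ 5)) := by ring
  have h4 : 0 ≤ y * ((r - t) ^ 2 * (r ^ 6 + 2 * r ^ 5 * t + 3 * r ^ 4 * t ^ 2 +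
      4 * r ^ 3 * t ^ 3 + 5 * r ^ 2 * t ^ 4 + 6 * r * t ^ 5)) := by positivity
  linarith

theorem gain_aux {t : ℝ} (ht : 0 ≤ t) : 8 * t ^ 7 - 7 * t ^ 8 ≤ 1 := by
  have h := persp (x := 1) (y := 1) (t := t) zero_le_one one_pos ht
  simp only [one_pow, div_one, mul_one] at h
  have : 0 ≤ 7 * t ^ 6 * (1 - t) ^ 2 := by positivity
  linarith

theorem gain_sq {th a c t m : ℝ} (hth : 0 ≤ th) (hth1 : th ≤ 1 / 20) (ha : 0 < a) (ha1 : a ≤ 1)
    (hm0 : 0 < m) (hm1 : m ≤ 1) (ht : 1 - th ≤ t) (h7 : (c - t * a) * m = (1 - th) * (c - a)) :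
    4 * (c - a) ^ 2 ≤ 7 * t ^ 6 * (c - t * a) ^ 2 / a := by
  rw [le_div_iff₀ ha]
  have h8 : (1 - th) ^ 2 * (c - a) ^ 2 ≤ (c - t * a) ^ 2 := by
    have h9 : (1 - th) ^ 2 * (c - a) ^ 2 = (c - t * a) ^ 2 * m ^ 2 := by
      have : (1 - th) ^ 2 * (c - a) ^ 2 = ((1 - th) * (c - a)) ^ 2 := by ring
      rw [this, ← h7]
      ring
    rw [h9]
    exact mul_le_of_le_one_right (sq_nonneg _) (pow_le_one₀ hm0.le hm1)
  have h9 : (19 / 20 : ℝ) ^ 6 ≤ t ^ 6 := pow_le_pow_left₀ (by norm_num) (by linarith) 6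
  have h10 : (19 / 20 : ℝ) ^ 2 ≤ (1 - th) ^ 2 := pow_le_pow_left₀ (by norm_num) (by linarith) 2
  have h11 : (19 / 20 : ℝ) ^ 2 * (c - a) ^ 2 ≤ (c - t * a) ^ 2 :=
    le_trans (mul_le_mul_of_nonneg_right h10 (sq_nonneg _)) h8
  have h12 : (19 / 20 : ℝ) ^ 6 * ((19 / 20 : ℝ) ^ 2 * (c - a) ^ 2) ≤
      t ^ 6 * (c - t * a) ^ 2 := mul_le_mul h9 h11 (by positivity) (by positivity)
  have h13 : 4 * (c - a) ^ 2 * a ≤ 4 * (c - a) ^ 2 :=
    mul_le_of_le_one_right (by positivity) ha1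
  have h14 : 4 * (c - a) ^ 2 ≤ 7 * ((19 / 20 : ℝ) ^ 6 * ((19 / 20 : ℝ) ^ 2 * (c - a) ^ 2)) := by
    have : 7 * ((19 / 20 : ℝ) ^ 6 * ((19 / 20 : ℝ) ^ 2 * (c - a) ^ 2)) =
      (7 * (19 / 20 : ℝ) ^ 8) * (c - a) ^ 2 := by ring
    rw [this]
    exact mul_le_mul_of_nonneg_right (by norm_num) (sq_nonneg _)
  have h15 : 7 * t ^ 6 * (c - t * a) ^ 2 = 7 * (t ^ 6 * (c - t * a) ^ 2) := by ring
  rw [h15]
  linarith

/-- the gain of Jensen -/
theorem gain {th a c : ℝ} (hth : 0 ≤ th) (hth1 : th ≤ 1 / 20) (ha : 0 < a) (ha1 : a ≤ 1)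
    (hc : 0 ≤ c) (hc1 : c ≤ 1) :
    (1 - th * (1 - c)) ^ 8 / (1 - th * (1 - a)) ^ 7 + 4 * th * (c - a) ^ 2 ≤
      1 - th + th * (c ^ 8 / a ^ 7) := by
  have hA : 0 ≤ th * (1 - a) := mul_nonneg hth (by linarith)
  have hA1 : th * (1 - a) ≤ th := mul_le_of_le_one_right hth (by linarith)
  have hC : 0 ≤ th * (1 - c) := mul_nonneg hth (by linarith)
  have hC1 : th * (1 - c) ≤ th := mul_le_of_le_one_right hth (by linarith)
  obtain ⟨x, hx⟩ : ∃ x, x = 1 - th * (1 - c) := ⟨_, rfl⟩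
  obtain ⟨m, hm⟩ : ∃ m, m = 1 - th * (1 - a) := ⟨_, rfl⟩
  rw [← hx, ← hm]
  have hm0 : 0 < m := by linarith
  have hm1 : m ≤ 1 := by linarith
  have hx0 : 1 - th ≤ x := by linarith
  have hx0' : 0 < x := by linarith
  obtain ⟨t, ht⟩ : ∃ t, t = x / m := ⟨_, rfl⟩
  have ht0 : 1 - th ≤ t := by
    rw [ht, le_div_iff₀ hm0]
    exact le_trans (mul_le_of_le_one_right (by linarith) hm1) hx0
  have ht0' : 0 < t := by linarith
  have htm : t * m = x := by rw [ht]; field_simp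
  have h2 := persp (x := c) (y := a) (t := t) hc ha ht0'.le
  have h3 := gain_aux ht0'.le
  have h4 : x ^ 8 / m ^ 7 = 8 * t ^ 7 * x - 7 * t ^ 8 * m := by
    rw [← htm]
    have : (t * m) ^ 8 / m ^ 7 = t ^ 8 * m := by field_simp
    rw [this]
    ring
  have h5 : 8 * t ^ 7 * x - 7 * t ^ 8 * m = (1 - th) * (8 * t ^ 7 - 7 * t ^ 8) +
      th * (8 * t ^ 7 * c - 7 * t ^ 8 * a) := by
    rw [hx, hm]
    ring
  have h7 : (c - t * a) * m = (1 - th) * (c - a) := by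
    have : (c - t * a) * m = c * m - (t * m) * a := by ring
    rw [this, htm, hx, hm]
    ring
  have h6 := gain_sq hth hth1 ha ha1 hm0 hm1 ht0 h7
  have h8 : th * (8 * t ^ 7 * c - 7 * t ^ 8 * a) + th * (4 * (c - a) ^ 2) ≤
      th * (c ^ 8 / a ^ 7) := by
    rw [← mul_add]
    refine mul_le_mul_of_nonneg_left ?_ hth
    linarith
  have h9 : (1 - th) * (8 * t ^ 7 - 7 * t ^ 8) ≤ (1 - th) * 1 :=
    mul_le_mul_of_nonneg_left h3 (by linarith)
  rw [h4, h5]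
  have h10 : 4 * th * (c - a) ^ 2 = th * (4 * (c - a) ^ 2) := by ring
  rw [h10]
  linarith

theorem inv_seven {y : ℝ} (hy : 0 ≤ y) (hy1 : y ≤ 1 / 20) : 1 / (1 - y) ^ 7 ≤ 1 + 14 * y := by
  have h0 : (0 : ℝ) < (1 - y) ^ 7 := pow_pos (by linarith) 7
  rw [div_le_iff₀ h0]
  have h1 : 1 - 7 * y ≤ (1 - y) ^ 7 := by
    have := one_add_mul_le_pow (a := -y) (by linarith) 7
    have h2 : (1 + -y) ^ 7 = (1 - y) ^ 7 := by ring
    rw [h2] at this
    norm_num at this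
    linarith
  have h2 : (1 + 14 * y) * (1 - 7 * y) ≤ (1 + 14 * y) * (1 - y) ^ 7 :=
    mul_le_mul_of_nonneg_left h1 (by linarith)
  have h3 : 1 ≤ (1 + 14 * y) * (1 - 7 * y) := by
    have : (1 + 14 * y) * (1 - 7 * y) = 1 + y * (7 - 98 * y) := by ring
    rw [this]
    have := mul_nonneg hy (show (0 : ℝ) ≤ 7 - 98 * y by linarith)
    linarith
  linarith

theorem one_sub_pow_le {d : ℝ} (hd : 0 ≤ d) (hd1 : d ≤ 1) (n : ℕ) :
    (1 - d) ^ n ≤ 1 - n * d + (n * (n - 1) / 2 : ℝ) * d ^ 2 := by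
  induction n with
  | zero => simp
  | succ n ih =>
    have h5 : (1 - d) ^ (n + 1) ≤ (1 - n * d + (n * (n - 1) / 2 : ℝ) * d ^ 2) * (1 - d) := by
      rw [pow_succ]
      exact mul_le_mul_of_nonneg_right ih (by linarith)
    have h6 : (0 : ℝ) ≤ (n * (n - 1) / 2 : ℝ) * d ^ 3 := by
      rcases Nat.eq_zero_or_pos n with rfl | hn
      · simp
      · have : (1 : ℝ) ≤ n := by exact_mod_cast hn
        have h7 : (0 : ℝ) ≤ (n : ℝ) - 1 := by linarith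
        positivity
    have h7 : (1 - n * d + (n * (n - 1) / 2 : ℝ) * d ^ 2) * (1 - d) =
        1 - (n + 1 : ℝ) * d + ((n + 1 : ℝ) * (n + 1 - 1) / 2) * d ^ 2 -
          (n * (n - 1) / 2 : ℝ) * d ^ 3 := by ring
    rw [h7] at h5
    push_cast
    linarith

theorem one_sub_pow16 {d : ℝ} (hd : 0 ≤ d) (hd1 : d ≤ 1) :
    16 * d - 120 * d ^ 2 ≤ 1 - (1 - d) ^ 16 := by
  have := one_sub_pow_le hd hd1 16
  norm_num at this
  linarith

theorem pow8_sub {y x : ℝ} (hx : 0 ≤ x) (hxy : x ≤ y) (hy1 : y ≤ 1) :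
    y ^ 8 - x ^ 8 ≤ 8 * (y - x) := by
  have hy : 0 ≤ y := hx.trans hxy
  have hx1 : x ≤ 1 := hxy.trans hy1
  have h9 : y ^ 8 - x ^ 8 = (y - x) * (y ^ 7 + y ^ 6 * x + y ^ 5 * x ^ 2 +
      y ^ 4 * x ^ 3 + y ^ 3 * x ^ 4 + y ^ 2 * x ^ 5 + y * x ^ 6 + x ^ 7) := by ring
  have p : ∀ i j : ℕ, y ^ i * x ^ j ≤ 1 := fun i j =>
    mul_le_one₀ (pow_le_one₀ hy hy1) (pow_nonneg hx j) (pow_le_one₀ hx hx1)
  have p1 : y * x ^ 6 ≤ 1 := by simpa using p 1 6
  have p6 : y ^ 6 * x ≤ 1 := by simpa using p 6 1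
  have p7 : y ^ 7 ≤ 1 := pow_le_one₀ hy hy1
  have p0 : x ^ 7 ≤ 1 := pow_le_one₀ hx hx1
  rw [h9, mul_comm (8 : ℝ)]
  refine mul_le_mul_of_nonneg_left ?_ (by linarith)
  linarith [p 5 2, p 4 3, p 3 4, p 2 5]

/-- the final comparison of the main case -/
theorem final_cmp {th et d c A e : ℝ} (hth : 0 ≤ th) (hth1 : th ≤ 1 / 20) (het : 0 ≤ et)
    (het1 : et ≤ 1 / 40) (hd : 0 ≤ d) (hc : 0 ≤ c) (hA : 0 ≤ A) (hA1 : A ≤ 2 * d + c)
    (he : e = 2 * et * th * d - th * (1 - th * (1 - et) ^ 2) * d ^ 2) :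
    8 * e * (1 + 14 * (th * A)) ≤ et * th * (16 * d - 120 * d ^ 2) + 4 * th * c ^ 2 := by
  have h14 : 7 / 8 ≤ 1 - th * (1 - et) ^ 2 := by
    have h1 : (1 - et) ^ 2 ≤ 1 := pow_le_one₀ (by linarith) (by linarith)
    have h2 : th * (1 - et) ^ 2 ≤ th := mul_le_of_le_one_right hth h1
    linarith
  have h15 : 7 / 8 * (th * d ^ 2) ≤ (1 - th * (1 - et) ^ 2) * (th * d ^ 2) :=
    mul_le_mul_of_nonneg_right h14 (by positivity)
  have h16 : (1 - th * (1 - et) ^ 2) * (th * d ^ 2) = th * (1 - th * (1 - et) ^ 2) * d ^ 2 := by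
    ring
  have h13 : 8 * e ≤ 16 * (et * th * d) - 7 * (th * d ^ 2) := by
    rw [he, ← h16]
    have : 2 * et * th * d = 2 * (et * th * d) := by ring
    linarith
  have h17 : 0 ≤ th * d ^ 2 := by positivity
  have h18 : 8 * e ≤ 16 * (et * th * d) := by linarith
  have h19 : 0 ≤ 14 * (th * A) := by positivity
  have h20 : 8 * e * (14 * (th * A)) ≤ 16 * (et * th * d) * (14 * (th * (2 * d + c))) := by
    calc 8 * e * (14 * (th * A)) ≤ 16 * (et * th * d) * (14 * (th * A)) :=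
          mul_le_mul_of_nonneg_right h18 h19
      _ ≤ _ := by
        refine mul_le_mul_of_nonneg_left ?_ (by positivity)
        have := mul_le_mul_of_nonneg_left hA1 hth
        linarith
  have h21 : 16 * (et * th * d) * (14 * (th * (2 * d + c))) =
      th * (224 * (et * th) * (2 * d ^ 2 + d * c)) := by ring
  have h22 : et * th ≤ 1 / 40 * (1 / 20) := mul_le_mul het1 hth1 hth (by norm_num)
  have h23 : d * c ≤ (d ^ 2 + c ^ 2) / 2 := by
    have := sq_nonneg (d - c)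
    have h : (d - c) ^ 2 = d ^ 2 - 2 * (d * c) + c ^ 2 := by ring
    linarith
  have h24 : 224 * (et * th) * (2 * d ^ 2 + d * c) ≤ 1 / 2 * (2 * d ^ 2 + d * c) :=
    mul_le_mul_of_nonneg_right (by linarith) (by positivity)
  have h25 : et * d ^ 2 ≤ 1 / 40 * d ^ 2 := mul_le_mul_of_nonneg_right het1 (sq_nonneg d)
  have h26 : 224 * (et * th) * (2 * d ^ 2 + d * c) + 120 * (et * d ^ 2) ≤
      7 * d ^ 2 + 4 * c ^ 2 := by
    have := sq_nonneg c
    have := sq_nonneg d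
    linarith
  have h27 := mul_le_mul_of_nonneg_left h26 hth
  have h28 : 8 * e * (1 + 14 * (th * A)) = 8 * e + 8 * e * (14 * (th * A)) := by ring
  have h29 : et * th * (16 * d - 120 * d ^ 2) = 16 * (et * th * d) - 120 * (th * (et * d ^ 2)) := by
    ring
  rw [h28, h29]
  linarith

theorem main_case {th et a b : ℝ} (hth : 0 ≤ th) (hth1 : th ≤ 1 / 20) (het : 0 ≤ et)
    (het1 : et ≤ 1 / 40) (ha : 0 < a) (ha1 : a ≤ 1) (hb : 0 ≤ b) (hb1 : b ≤ 1) :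
    (1 - th * (1 - et) * (1 - b)) ^ 16 / (1 - th * (1 - a)) ^ 7 + et * th * b ^ 16 ≤
      1 - th + et * th + th * (b ^ 16 / a ^ 7) := by
  have hA : 0 ≤ th * (1 - a) := mul_nonneg hth (by linarith)
  have hA1 : th * (1 - a) ≤ th := mul_le_of_le_one_right hth (by linarith)
  have hB : 0 ≤ th * (1 - et) * (1 - b) :=
    mul_nonneg (mul_nonneg hth (by linarith)) (by linarith)
  have hB1 : th * (1 - et) * (1 - b) ≤ 1 := by
    have h1 : th * (1 - et) ≤ 1 := le_trans (mul_le_of_le_one_right hth (by linarith)) (by linarith)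
    exact le_trans (mul_le_of_le_one_right (mul_nonneg hth (by linarith)) (by linarith)) h1
  have hb2 : b ^ 2 ≤ 1 := pow_le_one₀ hb hb1
  have hg := gain hth hth1 ha ha1 (c := b ^ 2) (by positivity) hb2
  have hb8 : (b ^ 2) ^ 8 = b ^ 16 := by ring
  rw [hb8] at hg
  have hC : 0 ≤ th * (1 - b ^ 2) := mul_nonneg hth (by linarith)
  have hC1 : th * (1 - b ^ 2) ≤ th := mul_le_of_le_one_right hth (by linarith [sq_nonneg b])
  obtain ⟨u, hu⟩ : ∃ u, u = 1 - th * (1 - et) * (1 - b) := ⟨_, rfl⟩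
  obtain ⟨m, hm⟩ : ∃ m, m = 1 - th * (1 - a) := ⟨_, rfl⟩
  obtain ⟨x, hx⟩ : ∃ x, x = 1 - th * (1 - b ^ 2) := ⟨_, rfl⟩
  rw [← hx, ← hm] at hg
  rw [← hu, ← hm]
  have hu0 : 0 ≤ u := by linarith
  have hu1 : u ≤ 1 := by linarith
  have hm0 : 0 < m := by linarith
  have hm7 : 0 < m ^ 7 := pow_pos hm0 7
  have hx0 : 0 ≤ x := by linarith
  have hb16 : b ^ 16 ≤ 1 := pow_le_one₀ hb hb1
  have het0 : 0 ≤ et * th := mul_nonneg het hth
  have hu16 : u ^ 16 = (u ^ 2) ^ 8 := by ring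
  have hsq : 0 ≤ 4 * th * (b ^ 2 - a) ^ 2 := by positivity
  by_cases hux : u ^ 2 ≤ x
  · have h1 : u ^ 16 / m ^ 7 ≤ x ^ 8 / m ^ 7 := by
      rw [hu16]
      exact div_le_div_of_nonneg_right (pow_le_pow_left₀ (sq_nonneg u) hux 8) hm7.le
    have h2 : et * th * b ^ 16 ≤ et * th := mul_le_of_le_one_right het0 hb16
    linarith
  · push Not at hux
    have hu2 : u ^ 2 ≤ 1 := pow_le_one₀ hu0 hu1
    have h8 := pow8_sub hx0 hux.le hu2
    have h10 := inv_seven (y := th * (1 - a)) hA (by linarith)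
    rw [← hm] at h10
    have h9 : u ^ 16 / m ^ 7 - x ^ 8 / m ^ 7 ≤ 8 * (u ^ 2 - x) * (1 + 14 * (th * (1 - a))) := by
      rw [hu16, ← sub_div]
      calc ((u ^ 2) ^ 8 - x ^ 8) / m ^ 7 ≤ 8 * (u ^ 2 - x) / m ^ 7 :=
            div_le_div_of_nonneg_right h8 hm7.le
        _ = 8 * (u ^ 2 - x) * (1 / m ^ 7) := by ring
        _ ≤ _ := mul_le_mul_of_nonneg_left h10 (by linarith)
    have h11 : 16 * (1 - b) - 120 * (1 - b) ^ 2 ≤ 1 - b ^ 16 := by
      have := one_sub_pow16 (d := 1 - b) (by linarith) (by linarith)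
      have h1 : (1 - (1 - b)) = b := by ring
      rw [h1] at this
      exact this
    have hc : 1 - a ≤ 2 * (1 - b) + |b ^ 2 - a| := by
      have h1 : 1 - b ^ 2 ≤ 2 * (1 - b) := by
        have : 1 - b ^ 2 = 2 * (1 - b) - (1 - b) ^ 2 := by ring
        rw [this]
        linarith [sq_nonneg (1 - b)]
      have := le_abs_self (b ^ 2 - a)
      linarith
    have he : u ^ 2 - x = 2 * et * th * (1 - b) -
        th * (1 - th * (1 - et) ^ 2) * (1 - b) ^ 2 := by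
      rw [hu, hx]
      ring
    have h12 := final_cmp hth hth1 het het1 (d := 1 - b) (by linarith)
      (abs_nonneg (b ^ 2 - a)) (A := 1 - a) (by linarith) hc he
    rw [sq_abs] at h12
    have h13 : et * th * (16 * (1 - b) - 120 * (1 - b) ^ 2) ≤ et * th * (1 - b ^ 16) :=
      mul_le_mul_of_nonneg_left h11 het0
    have h14 : et * th * (1 - b ^ 16) = et * th - et * th * b ^ 16 := by ring
    linarith

theorem tiny_case {th et a b lam : ℝ} (hth : 0 ≤ th) (hth1 : th ≤ 1 / 20) (het : 0 ≤ et)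
    (het1 : et ≤ 1 / 40) (ha : 0 < a) (ha1 : a ≤ 1) (hb : 0 ≤ b) (hb1 : b ≤ 1)
    (hlam : 64 ≤ lam) (hla1 : (lam * a) ^ 7 ≤ 1) :
    (1 - th * (1 - et) * (1 - b)) ^ 16 / (1 - th * (1 - a)) ^ 7 +
      et * th * (b ^ 16 * (1 / (lam * a) ^ 7)) ≤
      1 - th + et * th + th * (b ^ 16 / a ^ 7) := by
  have hA : 0 ≤ th * (1 - a) := mul_nonneg hth (by linarith)
  have hA1 : th * (1 - a) ≤ th := mul_le_of_le_one_right hth (by linarith)
  have hB : 0 ≤ th * (1 - et) * (1 - b) :=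
    mul_nonneg (mul_nonneg hth (by linarith)) (by linarith)
  have hB1 : th * (1 - et) * (1 - b) ≤ 1 := by
    have h1 : th * (1 - et) ≤ 1 := le_trans (mul_le_of_le_one_right hth (by linarith)) (by linarith)
    exact le_trans (mul_le_of_le_one_right (mul_nonneg hth (by linarith)) (by linarith)) h1
  obtain ⟨u, hu⟩ : ∃ u, u = 1 - th * (1 - et) * (1 - b) := ⟨_, rfl⟩
  obtain ⟨m, hm⟩ : ∃ m, m = 1 - th * (1 - a) := ⟨_, rfl⟩
  rw [← hu, ← hm]
  have hu0 : 0 ≤ u := by linarith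
  have hu1 : u ≤ 1 := by linarith
  have hm0 : 1 - th ≤ m := by linarith
  have hm0' : 0 < m := by linarith
  have hm7 : 0 < m ^ 7 := pow_pos hm0' 7
  have het0 : 0 ≤ et * th := mul_nonneg het hth
  have hl7 : (64 : ℝ) ^ 7 ≤ lam ^ 7 := pow_le_pow_left₀ (by norm_num) hlam 7
  have ha7 : 0 < a ^ 7 := pow_pos ha 7
  have hlam0 : 0 < lam := by linarith
  obtain ⟨Q, hQ⟩ : ∃ Q, Q = b ^ 16 / a ^ 7 := ⟨_, rfl⟩
  have hQ0 : 0 ≤ Q := by rw [hQ]; positivity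
  have h1 : b ^ 16 * (1 / (lam * a) ^ 7) = Q / lam ^ 7 := by
    rw [hQ]
    field_simp
  rw [h1, ← hQ]
  have h2 : Q / lam ^ 7 ≤ Q := by
    refine div_le_self hQ0 ?_
    linarith [show (1 : ℝ) ≤ 64 ^ 7 by norm_num]
  have h2' : et * th * (Q / lam ^ 7) ≤ et * th * Q := mul_le_mul_of_nonneg_left h2 het0
  have hthQ : 0 ≤ th * Q := mul_nonneg hth hQ0
  have h2'' : et * th * Q ≤ 1 / 40 * (th * Q) := by
    have : et * th * Q = et * (th * Q) := by ring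
    rw [this]
    exact mul_le_mul_of_nonneg_right het1 hthQ
  by_cases hb4 : 1 / 4 ≤ b
  · have h3 : (1 / 4 : ℝ) ^ 16 ≤ b ^ 16 := pow_le_pow_left₀ (by norm_num) hb4 16
    have h4 : (1024 : ℝ) ≤ Q := by
      rw [hQ, le_div_iff₀ ha7]
      have h6 : (64 : ℝ) ^ 7 * a ^ 7 ≤ 1 := by
        calc (64 : ℝ) ^ 7 * a ^ 7 ≤ lam ^ 7 * a ^ 7 :=
              mul_le_mul_of_nonneg_right hl7 ha7.le
          _ = (lam * a) ^ 7 := by ring
          _ ≤ 1 := hla1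
      have h7 : (1024 : ℝ) * a ^ 7 = (64 ^ 7 * a ^ 7) * (1 / 4) ^ 16 := by ring
      rw [h7]
      refine le_trans ?_ h3
      exact mul_le_of_le_one_left (by positivity) h6
    have h5 : u ^ 16 / m ^ 7 ≤ 1 + 14 * th := by
      have h6 : u ^ 16 ≤ 1 := pow_le_one₀ hu0 hu1
      have h7 := inv_seven hth hth1
      have h8 : (1 - th) ^ 7 ≤ m ^ 7 := pow_le_pow_left₀ (by linarith) hm0 7
      calc u ^ 16 / m ^ 7 ≤ 1 / (1 - th) ^ 7 :=
            div_le_div₀ zero_le_one h6 (pow_pos (by linarith) 7) h8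
        _ ≤ _ := h7
    have h6 : th * 1024 ≤ th * Q := mul_le_mul_of_nonneg_left h4 hth
    linarith
  · push Not at hb4
    have h3 : u ≤ 1 - 7 / 10 * th := by
      rw [hu]
      have h4 : 39 / 40 * (3 / 4) ≤ (1 - et) * (1 - b) :=
        mul_le_mul (by linarith) (by linarith) (by norm_num) (by linarith)
      have h5 : th * (39 / 40 * (3 / 4)) ≤ th * ((1 - et) * (1 - b)) :=
        mul_le_mul_of_nonneg_left h4 hth
      have h6 : th * (1 - et) * (1 - b) = th * ((1 - et) * (1 - b)) := by ring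
      rw [h6]
      linarith
    have h4 : u ^ 2 ≤ 1 - th := by
      refine le_trans (pow_le_pow_left₀ hu0 h3 2) ?_
      have : (1 - 7 / 10 * th) ^ 2 = 1 - th - th * (4 / 10 - 49 / 100 * th) := by ring
      rw [this]
      have := mul_nonneg hth (show (0 : ℝ) ≤ 4 / 10 - 49 / 100 * th by linarith)
      linarith
    have h5 : u ^ 16 ≤ (1 - th) ^ 8 := by
      have : u ^ 16 = (u ^ 2) ^ 8 := by ring
      rw [this]
      exact pow_le_pow_left₀ (sq_nonneg u) h4 8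
    have h6 : u ^ 16 / m ^ 7 ≤ 1 - th := by
      rw [div_le_iff₀ hm7]
      have h7 : (1 - th) ^ 7 ≤ m ^ 7 := pow_le_pow_left₀ (by linarith) hm0 7
      calc u ^ 16 ≤ (1 - th) ^ 8 := h5
        _ = (1 - th) * (1 - th) ^ 7 := by ring
        _ ≤ (1 - th) * m ^ 7 := mul_le_mul_of_nonneg_left h7 (by linarith)
    linarith

/-- **The one-coordinate inequality, exponents (16, 7).** -/
theorem scalar16 {th et a b lam : ℝ} (hth : 0 ≤ th) (hth1 : th ≤ 1 / 20) (het : 0 ≤ et)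
    (het1 : et ≤ 1 / 40) (ha : 0 < a) (ha1 : a ≤ 1) (hb : 0 ≤ b) (hb1 : b ≤ 1)
    (hlam : 64 ≤ lam) :
    (1 - th * (1 - et) * (1 - b)) ^ 16 / (1 - th * (1 - a)) ^ 7 +
      et * th * (b ^ 16 * max 1 (1 / (lam * a) ^ 7)) ≤
      1 - th + et * th + th * (b ^ 16 / a ^ 7) := by
  have hlam0 : 0 < lam := by linarith
  have hla : 0 < lam * a := by positivity
  have hla7 : 0 < (lam * a) ^ 7 := pow_pos hla 7
  by_cases hcase : 1 ≤ lam * a
  · have hmax : max 1 (1 / (lam * a) ^ 7) = 1 := by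
      refine max_eq_left ?_
      rw [div_le_one hla7]
      exact one_le_pow₀ hcase
    rw [hmax, mul_one]
    exact main_case hth hth1 het het1 ha ha1 hb hb1
  · push Not at hcase
    have hla71 : (lam * a) ^ 7 ≤ 1 := pow_le_one₀ hla.le hcase.le
    have hmax : max 1 (1 / (lam * a) ^ 7) = 1 / (lam * a) ^ 7 := by
      refine max_eq_right ?_
      rw [le_div_iff₀ hla7]
      linarith
    rw [hmax]
    exact tiny_case hth hth1 het het1 ha ha1 hb hb1 hlam hla71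

end Vale.Agent.P331.H311
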